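import Vale.Agent.P290S.Br4
import Vale.Agent.P290Z.ZMain

/-! General elliptic K3 surfaces, families and all Kummer surfaces. -/

namespace Vale.Agent.Results.P290.AllKummer

open Vale.Agent.P290S

theorem result :
    (∃ P : MvPolynomial (Fin 9 ⊕ Fin 13) ℂ, P ≠ 0 ∧
      (∀ (X : Type) [MetricSpace X] [CompactSpace X] [ChartedSpace C2 X], IsSurface X →
        ∀ (σ : X → C2 → C2 → ℂ) (π : X → P1), IsEll σ π → (∃ α β, HasInv σ π α β) ∧
          ∀ α β, HasInv σ π α β → MvPolynomial.eval (Sum.elim α β) P ≠ 0 → IsOka X) ∧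
      (∀ (α : Fin 9 → ℂ) (β : Fin 13 → ℂ), MvPolynomial.eval (Sum.elim α β) P ≠ 0 →
        ∃ (X : Type) (_ : MetricSpace X) (_ : CompactSpace X) (_ : ChartedSpace C2 X),
          IsSurface X ∧ ∃ (σ : X → C2 → C2 → ℂ) (π : X → P1), IsEll σ π ∧ HasInv σ π α β) ∧
      ∀ (T Y : Type) [NormedAddCommGroup T] [NormedSpace ℂ T] [FiniteDimensional ℂ T]
        [MetricSpace Y] [SecondCountableTopology Y] [ChartedSpace (C2 × T) Y] (B : Set T)
        (p : Y → T) (X : T → Type) [∀ t, MetricSpace (X t)] [∀ t, ChartedSpace C2 (X t)]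
        (j : ∀ t, X t → Y), IsFamily B p X j → IsOpen B →
        B ⊆ closure {t ∈ B | (∃ (σ : X t → C2 → C2 → ℂ) (π : X t → P1) (α : Fin 9 → ℂ)
          (β : Fin 13 → ℂ), IsEll σ π ∧ HasInv σ π α β ∧
            MvPolynomial.eval (Sum.elim α β) P ≠ 0) ∨
          ∃ (b : Fin 4 → ℂ × ℂ) (q : ℂ × ℂ → X t) (e : ℂ × ℂ → ℂ × ℂ × ℂ → X t),
            LinearIndependent ℝ b ∧ IsKummer (Submodule.span ℤ (Set.range b)) q e} →
        ∀ᶠ t in residual T, t ∈ B → IsOka (X t)) ∧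
    (∀ (X : Type) [MetricSpace X] [CompactSpace X] [ChartedSpace C2 X], IsSurface X →
      (∃ σ : X → C2 → C2 → ℂ, IsSympl σ) → TwoPencils X → IsOka X) ∧
    (∀ (X : Type) [MetricSpace X] [CompactSpace X] [ChartedSpace C2 X], IsSurface X →
      IsWehler X ∨ IsDouble X ∨ IsDiag X ∨ IsSplitQ X → IsOka X) ∧
    (∀ t : Fin 4 → ℂ × ℂ, LinearIndependent ℝ t →
      ∃ (X : Type) (_ : MetricSpace X) (_ : CompactSpace X) (_ : ChartedSpace C2 X),
        IsSurface X ∧ ∃ (q : ℂ × ℂ → X) (e : ℂ × ℂ → ℂ × ℂ × ℂ → X),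
          IsKummer (Submodule.span ℤ (Set.range t)) q e) ∧
    ∀ t : Fin 4 → ℂ × ℂ, LinearIndependent ℝ t →
      ∀ (X : Type) [MetricSpace X] [ChartedSpace C2 X], IsSurface X →
        ∀ (q : ℂ × ℂ → X) (e : ℂ × ℂ → ℂ × ℂ × ℂ → X),
          IsKummer (Submodule.span ℤ (Set.range t)) q e → IsOka X := by
  obtain ⟨P, hP, h1, h2⟩ := main3
  have key : ∀ t : Fin 4 → ℂ × ℂ, LinearIndependent ℝ t →
      ∀ (X : Type) [MetricSpace X] [ChartedSpace C2 X], IsSurface X →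
        ∀ (q : ℂ × ℂ → X) (e : ℂ × ℂ → ℂ × ℂ × ℂ → X),
          IsKummer (Submodule.span ℤ (Set.range t)) q e → IsOka X := by
    intro t ht X _ _ hX q e hk
    have : IsManifold (modelWithCornersSelf ℂ C2) ⊤ X := hX
    exact isOka_iff.2 ((IsKummer.old.1 hk).oka ht)
  refine ⟨⟨P, hP, h1, h2, fun T Y _ _ _ _ _ _ B p X _ _ j h hB hd =>
    main4 T Y B p X j h hB (hd.trans (closure_mono fun t ht => ⟨ht.1, ?_⟩))⟩,
    main1.1, fun X _ _ _ hX h => main2 X hX (by tauto), main5.1, key⟩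
  rcases ht.2 with ⟨σ, π, α, β, e1, e2, e3⟩ | ⟨b, q, e, e1, e2⟩
  · have := (h.2.2 t ht.1).2.1
    exact (h1 (X t) (h.2.2 t ht.1).1 σ π e1).2 α β e2 e3
  · exact key b e1 (X t) (h.2.2 t ht.1).1 q e e2

end Vale.Agent.Results.P290.AllKummer
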