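import Vale.Agent.P290S.Br2

/-! Oka K3 surfaces: two pencils, twists, explicit families. -/

namespace Vale.Agent.Results.P290.Families

open Vale.Agent.P290S

theorem result :
    (∀ (X : Type) [MetricSpace X] [CompactSpace X] [ChartedSpace C2 X], IsSurface X →
      (∃ σ : X → C2 → C2 → ℂ, IsSympl σ) → TwoPencils X → IsOka X) ∧
    (∀ (X X' : Type) [MetricSpace X] [CompactSpace X] [ChartedSpace C2 X] [MetricSpace X']
      [CompactSpace X'] [ChartedSpace C2 X'], IsSurface X → IsSurface X' → Twist X X' →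
      (IsOka X ↔ IsOka X')) ∧
    ∀ (X : Type) [MetricSpace X] [CompactSpace X] [ChartedSpace C2 X], IsSurface X →
      IsWehler X ∨ IsDouble X ∨ IsKumProd X ∨ IsDiag X ∨ IsSplitQ X → IsOka X :=
  ⟨main1.1, main1.2.1, main2⟩

end Vale.Agent.Results.P290.Families
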